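import Mathlib

/-!
# P064: copies of graphs, and the packing lemma

Graphs live on a fixed finite vertex set `V`; a copy of `F` in `H` is a graph `G ≤ H` on `V`
isomorphic to `F` (isolated vertices are padding).
-/

namespace Vale.Agent.Lib.P064

open Finset

set_option linter.unusedSectionVars false

variable {V : Type*} [Fintype V]

/-- number of edges -/
noncomputable def ec (F : SimpleGraph V) : ℕ := F.edgeSet.ncard

/-- number of subgraphs of `H` isomorphic to `F` -/
noncomputable def N (H F : SimpleGraph V) : ℕ :=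
  {G : SimpleGraph V | G ≤ H ∧ Nonempty (G ≃g F)}.ncard

/-- expected number of copies of `F` in the binomial random graph of density `p` on `V` -/
noncomputable def EN (p : ℝ) (F : SimpleGraph V) : ℝ := (N ⊤ F : ℝ) * p ^ ec F

theorem ec_iso {G F : SimpleGraph V} (φ : G ≃g F) : ec G = ec F := by
  unfold ec
  rw [← Nat.card_coe_set_eq, ← Nat.card_coe_set_eq]
  exact Nat.card_congr φ.mapEdgeSet

theorem comap_inj (σ : V ≃ V) {G G' : SimpleGraph V}
    (h : G.comap σ = G'.comap σ) : G = G' := by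
  ext a b
  have := congrArg (fun K : SimpleGraph V => K.Adj (σ.symm a) (σ.symm b)) h
  simpa using this

theorem eq_comap_of_iso {G U : SimpleGraph V} (φ : G ≃g U) : G = U.comap φ.toEquiv := by
  ext a b
  exact φ.map_adj_iff.symm

theorem comap_sSup (σ : V ≃ V) (P : Finset (SimpleGraph V)) [DecidableEq (SimpleGraph V)] :
    (sSup (P : Set (SimpleGraph V))).comap σ
      = sSup ((P.image (fun G => G.comap σ) : Finset (SimpleGraph V)) : Set (SimpleGraph V)) := by
  ext a b
  simp only [SimpleGraph.comap_adj, SimpleGraph.sSup_adj, Finset.mem_coe, Finset.mem_image]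
  constructor
  · rintro ⟨G, hG, h⟩
    exact ⟨G.comap σ, ⟨G, hG, rfl⟩, h⟩
  · rintro ⟨_, ⟨G, hG, rfl⟩, h⟩
    exact ⟨G, hG, h⟩

/-- A union of `m` members of a class of graphs closed under relabelling has at most
`choose |C| m` copies in the complete graph. -/
theorem count_sSup_le (C : Finset (SimpleGraph V))
    (hC : ∀ G ∈ C, ∀ σ : V ≃ V, G.comap σ ∈ C)
    (P : Finset (SimpleGraph V)) (hP : P ⊆ C) :
    N ⊤ (sSup (P : Set (SimpleGraph V))) ≤ C.card.choose P.card := by
  classical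
  rw [← Finset.card_powersetCard]
  unfold N
  rw [← Set.ncard_coe_finset (Finset.powersetCard P.card C)]
  set U := sSup (P : Set (SimpleGraph V)) with hU
  let Φ : SimpleGraph V → Finset (SimpleGraph V) := fun G =>
    if h : Nonempty (G ≃g U) then P.image (fun K => K.comap h.some.toEquiv) else ∅
  have hΦ : ∀ G, ∀ h : Nonempty (G ≃g U), Φ G = P.image (fun K => K.comap h.some.toEquiv) := by
    intro G h
    simp only [Φ, dif_pos h]
  have hsup : ∀ G, Nonempty (G ≃g U) → sSup ((Φ G : Finset (SimpleGraph V)) : Set _) = G := by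
    intro G h
    rw [hΦ G h, ← comap_sSup]
    exact (eq_comap_of_iso h.some).symm
  apply Set.ncard_le_ncard_of_injOn Φ
  · rintro G ⟨-, h⟩
    rw [hΦ G h]
    rw [Finset.mem_coe, Finset.mem_powersetCard]
    refine ⟨?_, ?_⟩
    · intro K hK
      obtain ⟨K', hK', rfl⟩ := Finset.mem_image.mp hK
      exact hC K' (hP hK') _
    · apply Finset.card_image_of_injective
      intro K K' hKK
      exact comap_inj _ hKK
  · rintro G ⟨-, h⟩ G' ⟨-, h'⟩ hGG
    rw [← hsup G h, ← hsup G' h', hGG]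

/-- edges of a union of pairwise disjoint graphs with `e0` edges each -/
theorem ec_sSup (P : Finset (SimpleGraph V)) (e0 : ℕ) (he : ∀ G ∈ P, ec G = e0)
    (hd : ∀ G ∈ P, ∀ G' ∈ P, G ≠ G' → Disjoint G G') :
    ec (sSup (P : Set (SimpleGraph V))) = P.card * e0 := by
  classical
  induction P using Finset.induction_on with
  | empty => simp [ec]
  | insert G P hG ih =>
    rw [Finset.coe_insert, sSup_insert, Finset.card_insert_of_notMem hG]
    have h1 : Disjoint G (sSup (P : Set (SimpleGraph V))) := by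
      rw [disjoint_sSup_iff]
      intro G' hG'
      apply hd G (Finset.mem_insert_self _ _) G' (Finset.mem_insert_of_mem hG')
      rintro rfl
      exact hG hG'
    have h2 := ih (fun K hK => he K (Finset.mem_insert_of_mem hK))
      (fun K hK K' hK' => hd K (Finset.mem_insert_of_mem hK) K' (Finset.mem_insert_of_mem hK'))
    have h3 : ec (G ⊔ sSup (P : Set (SimpleGraph V))) = ec G + ec (sSup (P : Set (SimpleGraph V))) := by
      unfold ec
      rw [SimpleGraph.edgeSet_sup]
      exact Set.ncard_union_eq (SimpleGraph.disjoint_edgeSet.mpr h1) (Set.toFinite _) (Set.toFinite _)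
    rw [h3, h2, he G (Finset.mem_insert_self _ _)]
    ring

/-- the numerical step -/
theorem card_le_of_choose (c m e0 : ℕ) (q : ℝ) (hq : 0 ≤ q)
    (h : (1 : ℝ) ≤ (c.choose m : ℝ) * q ^ (m * e0)) :
    (m : ℝ) ≤ 3 * ((c : ℝ) * q ^ e0) := by
  have hx : 0 ≤ (c : ℝ) * q ^ e0 := by positivity
  rcases Nat.eq_zero_or_pos m with rfl | hm
  · simpa using hx
  set x := (c : ℝ) * q ^ e0 with hxdef
  have hf : (0 : ℝ) < (m.factorial : ℝ) := by exact_mod_cast Nat.factorial_pos m
  have h1 : (m.factorial : ℝ) ≤ x ^ m := by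
    have h2 : (c.choose m : ℝ) ≤ (c : ℝ) ^ m / (m.factorial : ℝ) := Nat.choose_le_pow_div m c
    have h3 : (1 : ℝ) ≤ (c : ℝ) ^ m / (m.factorial : ℝ) * q ^ (m * e0) :=
      h.trans (mul_le_mul_of_nonneg_right h2 (by positivity))
    have h4 : (c : ℝ) ^ m / (m.factorial : ℝ) * q ^ (m * e0) = x ^ m / (m.factorial : ℝ) := by
      rw [hxdef, mul_pow, ← pow_mul, mul_comm e0 m]
      ring
    rw [h4, le_div_iff₀ hf] at h3
    linarith
  have h5 : (m : ℝ) ^ m / (m.factorial : ℝ) ≤ Real.exp m :=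
    Real.pow_div_factorial_le_exp (m : ℝ) (by positivity) m
  rw [div_le_iff₀ hf] at h5
  have h6 : Real.exp (m : ℝ) ≤ 3 ^ m := by
    have : Real.exp (m : ℝ) = Real.exp 1 ^ m := by
      rw [← Real.exp_nat_mul]; simp
    rw [this]
    apply pow_le_pow_left₀ (Real.exp_pos 1).le
    have := Real.exp_one_lt_d9
    linarith
  have h7 : (m : ℝ) ^ m ≤ (3 * x) ^ m := by
    rw [mul_pow]
    calc (m : ℝ) ^ m ≤ Real.exp m * (m.factorial : ℝ) := h5
      _ ≤ 3 ^ m * x ^ m := by
        apply mul_le_mul h6 h1 hf.le (by positivity)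
  exact (pow_le_pow_iff_left₀ (by positivity) (by positivity) hm.ne').mp h7

/-- **Packing lemma** (class version). -/
theorem packing_class (H : SimpleGraph V) (q : ℝ) (hq : 0 ≤ q)
    (hyp : ∀ F : SimpleGraph V, F ≤ H → 1 ≤ EN q F)
    (C : Finset (SimpleGraph V)) (hC : ∀ G ∈ C, ∀ σ : V ≃ V, G.comap σ ∈ C)
    (e0 : ℕ) (P : Finset (SimpleGraph V)) (hP : P ⊆ C) (hPH : ∀ G ∈ P, G ≤ H)
    (he : ∀ G ∈ P, ec G = e0)
    (hd : ∀ G ∈ P, ∀ G' ∈ P, G ≠ G' → Disjoint G G') :
    (P.card : ℝ) ≤ 3 * ((C.card : ℝ) * q ^ e0) := by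
  apply card_le_of_choose _ _ _ _ hq
  have h1 : sSup (P : Set (SimpleGraph V)) ≤ H := sSup_le (fun G hG => hPH G hG)
  have h2 := hyp _ h1
  unfold EN at h2
  rw [ec_sSup P e0 he hd] at h2
  refine h2.trans ?_
  apply mul_le_mul_of_nonneg_right _ (by positivity)
  exact_mod_cast count_sSup_le C hC P hP

/-- **Packing lemma**: pairwise edge-disjoint copies of `F` in `H`. -/
theorem packing (H : SimpleGraph V) (q : ℝ) (hq : 0 ≤ q)
    (hyp : ∀ F : SimpleGraph V, F ≤ H → 1 ≤ EN q F)
    (F : SimpleGraph V) (P : Finset (SimpleGraph V))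
    (hP : ∀ G ∈ P, G ≤ H ∧ Nonempty (G ≃g F))
    (hd : ∀ G ∈ P, ∀ G' ∈ P, G ≠ G' → Disjoint G G') :
    (P.card : ℝ) ≤ 3 * EN q F := by
  classical
  have hfin : {G : SimpleGraph V | G ≤ ⊤ ∧ Nonempty (G ≃g F)}.Finite := Set.toFinite _
  have h := packing_class H q hq hyp hfin.toFinset (by
      intro G hG σ
      rw [Set.Finite.mem_toFinset] at hG ⊢
      obtain ⟨-, ⟨φ⟩⟩ := hG
      exact ⟨le_top, ⟨(SimpleGraph.Iso.comap σ G).trans φ⟩⟩) (ec F) P (by
      intro G hG
      rw [Set.Finite.mem_toFinset]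
      exact ⟨le_top, (hP G hG).2⟩) (fun G hG => (hP G hG).1)
      (fun G hG => by obtain ⟨φ⟩ := (hP G hG).2; exact ec_iso φ) hd
  unfold EN N
  rwa [Set.ncard_eq_toFinset_card _ hfin]

end Vale.Agent.Lib.P064
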