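import Mathlib
import Vale.Agent.Lib.P064.Pack

/-!
# P064: stars
-/

namespace Vale.Agent.Lib.P064

open Finset

set_option linter.unusedSectionVars false

variable {V : Type*} [Fintype V] [DecidableEq V]

/-- the star with centre `v` and leaf set `S` -/
def star (v : V) (S : Finset V) : SimpleGraph V :=
  SimpleGraph.fromRel (fun a b => a = v ∧ b ∈ S)

theorem star_adj (v : V) (S : Finset V) (a b : V) :
    (star v S).Adj a b ↔ a ≠ b ∧ ((a = v ∧ b ∈ S) ∨ (b = v ∧ a ∈ S)) := by
  unfold star
  rw [SimpleGraph.fromRel_adj]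

theorem star_adj_centre {v : V} {S : Finset V} (hv : v ∉ S) (b : V) :
    (star v S).Adj v b ↔ b ∈ S := by
  rw [star_adj]
  constructor
  · rintro ⟨h, ⟨-, h1⟩ | ⟨h1, -⟩⟩
    · exact h1
    · exact absurd h1.symm h
  · intro h
    refine ⟨?_, Or.inl ⟨rfl, h⟩⟩
    rintro rfl
    exact hv h

theorem comap_star (σ : V ≃ V) (v : V) (S : Finset V) :
    (star v S).comap σ = star (σ.symm v) (S.map σ.symm.toEmbedding) := by
  ext a b
  simp only [SimpleGraph.comap_adj, star_adj, Finset.mem_map_equiv, Equiv.symm_symm]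
  constructor
  · rintro ⟨h, h'⟩
    refine ⟨fun hab => h (by rw [hab]), ?_⟩
    rcases h' with ⟨h1, h2⟩ | ⟨h1, h2⟩
    · exact Or.inl ⟨by rw [← h1]; simp, h2⟩
    · exact Or.inr ⟨by rw [← h1]; simp, h2⟩
  · rintro ⟨h, h'⟩
    refine ⟨fun hab => h (σ.injective hab), ?_⟩
    rcases h' with ⟨h1, h2⟩ | ⟨h1, h2⟩
    · exact Or.inl ⟨by rw [h1]; simp, h2⟩
    · exact Or.inr ⟨by rw [h1]; simp, h2⟩

theorem ec_star {v : V} {S : Finset V} (hv : v ∉ S) : ec (star v S) = S.card := by
  unfold ec
  have h : (star v S).edgeSet = (fun x => s(v, x)) '' (S : Set V) := by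
    ext e
    induction e using Sym2.ind with
    | _ a b =>
      simp only [SimpleGraph.mem_edgeSet, star_adj, Set.mem_image, Finset.mem_coe, Sym2.eq_iff]
      constructor
      · rintro ⟨-, ⟨h1, h2⟩ | ⟨h1, h2⟩⟩
        · exact ⟨b, h2, Or.inl ⟨h1.symm, rfl⟩⟩
        · exact ⟨a, h2, Or.inr ⟨h1.symm, rfl⟩⟩
      · rintro ⟨x, hx, ⟨h1, h2⟩ | ⟨h1, h2⟩⟩
        · subst h1 h2
          exact ⟨fun h => hv (h ▸ hx), Or.inl ⟨rfl, hx⟩⟩
        · subst h1 h2
          exact ⟨fun h => hv (h ▸ hx), Or.inr ⟨rfl, hx⟩⟩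
  rw [h, Set.InjOn.ncard_image, Set.ncard_coe_finset]
  intro x _ y _ hxy
  simp only [Sym2.eq_iff] at hxy
  rcases hxy with ⟨-, h⟩ | ⟨h1, h2⟩
  · exact h
  · rw [← h1, h2]

/-- pairs (centre, leaf set of size `d`) -/
def starPairs (V : Type*) [Fintype V] [DecidableEq V] (d : ℕ) : Finset (Σ _ : V, Finset V) :=
  (Finset.univ : Finset V).sigma (fun v => Finset.powersetCard d (Finset.univ.erase v))

theorem card_starPairs (d : ℕ) :
    (starPairs V d).card = Fintype.card V * (Fintype.card V - 1).choose d := by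
  unfold starPairs
  rw [Finset.card_sigma]
  simp [Finset.card_univ]

open Classical in
/-- the class of all stars with `d` leaves -/
noncomputable def starClass (V : Type*) [Fintype V] [DecidableEq V] (d : ℕ) :
    Finset (SimpleGraph V) :=
  (starPairs V d).image (fun p => star p.1 p.2)

theorem mem_starClass {d : ℕ} {G : SimpleGraph V} :
    G ∈ starClass V d ↔ ∃ v S, v ∉ S ∧ S.card = d ∧ G = star v S := by
  classical
  unfold starClass starPairs
  simp only [Finset.mem_image, Finset.mem_sigma, Finset.mem_univ, true_and,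
    Finset.mem_powersetCard, Sigma.exists]
  constructor
  · rintro ⟨v, S, ⟨h1, h2⟩, rfl⟩
    exact ⟨v, S, fun h => by simpa using h1 h, h2, rfl⟩
  · rintro ⟨v, S, h1, h2, rfl⟩
    refine ⟨v, S, ⟨?_, h2⟩, rfl⟩
    intro x hx
    simp only [Finset.mem_erase, Finset.mem_univ, and_true]
    rintro rfl
    exact h1 hx

theorem card_starClass_le (d : ℕ) :
    (starClass V d).card ≤ Fintype.card V * (Fintype.card V - 1).choose d := by
  classical
  rw [← card_starPairs]
  exact Finset.card_image_le

theorem starClass_closed (d : ℕ) : ∀ G ∈ starClass V d, ∀ σ : V ≃ V, G.comap σ ∈ starClass V d := by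
  intro G hG σ
  obtain ⟨v, S, h1, h2, rfl⟩ := mem_starClass.mp hG
  refine mem_starClass.mpr ⟨σ.symm v, S.map σ.symm.toEmbedding, ?_, ?_, comap_star σ v S⟩
  · simpa using h1
  · simpa using h2

open Classical in
/-- neighbourhood -/
noncomputable def nb (H : SimpleGraph V) (v : V) : Finset V := Finset.univ.filter (fun w => H.Adj v w)

theorem mem_nb {H : SimpleGraph V} {v w : V} : w ∈ nb H v ↔ H.Adj v w := by
  unfold nb
  simp

theorem self_notMem_nb (H : SimpleGraph V) (v : V) : v ∉ nb H v := by
  rw [mem_nb]; exact H.irrefl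

theorem star_le {H : SimpleGraph V} {v : V} {S : Finset V} (hS : S ⊆ nb H v) : star v S ≤ H := by
  intro a b hab
  rw [star_adj] at hab
  rcases hab.2 with ⟨h1, h2⟩ | ⟨h1, h2⟩
  · subst h1; exact mem_nb.mp (hS h2)
  · subst h1; exact (mem_nb.mp (hS h2)).symm

theorem star_disjoint {H : SimpleGraph V} {v w : V} (hvw : v ≠ w) (hadj : ¬ H.Adj v w) :
    Disjoint (star v (nb H v)) (star w (nb H w)) := by
  rw [disjoint_iff_inf_le]
  intro a b hab
  exfalso
  rw [SimpleGraph.inf_adj, star_adj, star_adj] at hab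
  obtain ⟨⟨hne, h1⟩, ⟨-, h2⟩⟩ := hab
  rcases h1 with ⟨h1, h1'⟩ | ⟨h1, h1'⟩ <;> rcases h2 with ⟨h2, h2'⟩ | ⟨h2, h2'⟩
  · exact hvw (h1.symm.trans h2)
  · subst h1 h2; exact hadj (mem_nb.mp h1')
  · subst h1 h2; exact hadj (mem_nb.mp h1')
  · exact hvw (h1.symm.trans h2)

/-- a large independent subset -/
theorem exists_indep (H : SimpleGraph V) (d : ℕ) (W : Finset V) (hW : ∀ v ∈ W, (nb H v).card ≤ d) :
    ∃ I ⊆ W, (∀ a ∈ I, ∀ b ∈ I, ¬ H.Adj a b) ∧ W.card ≤ (d + 1) * I.card := by
  induction W using Finset.strongInduction with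
  | H W ih =>
    rcases W.eq_empty_or_nonempty with rfl | ⟨v, hv⟩
    · exact ⟨∅, by simp, by simp, by simp⟩
    · set W' := W \ insert v (nb H v) with hW'
      have hsub : W' ⊂ W := by
        refine ⟨Finset.sdiff_subset, fun h => ?_⟩
        have := h hv
        simp [hW'] at this
      obtain ⟨I, hI, hind, hcard⟩ := ih W' hsub (fun x hx => hW x (Finset.sdiff_subset hx))
      have hvI : v ∉ I := fun h => by
        have := hI h
        simp [hW'] at this
      refine ⟨insert v I, ?_, ?_, ?_⟩
      · intro x hx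
        rcases Finset.mem_insert.mp hx with rfl | hx
        · exact hv
        · exact Finset.sdiff_subset (hI hx)
      · have key : ∀ b ∈ I, ¬ H.Adj v b := by
          intro b hb hadj
          have := hI hb
          simp only [hW', Finset.mem_sdiff, Finset.mem_insert, not_or] at this
          exact this.2.2 (mem_nb.mpr hadj)
        intro a ha b hb
        rcases Finset.mem_insert.mp ha with ha' | ha' <;>
          rcases Finset.mem_insert.mp hb with hb' | hb'
        · rw [ha', hb']; exact H.irrefl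
        · rw [ha']; exact key b hb'
        · rw [hb']; exact fun h => key a ha' h.symm
        · exact hind a ha' b hb'
      · rw [Finset.card_insert_of_notMem hvI]
        have h1 : W.card ≤ W'.card + (insert v (nb H v)).card := by
          have : W ⊆ W' ∪ insert v (nb H v) := by
            intro x hx
            by_cases hx' : x ∈ insert v (nb H v)
            · exact Finset.mem_union_right _ hx'
            · exact Finset.mem_union_left _ (Finset.mem_sdiff.mpr ⟨hx, hx'⟩)
          exact (Finset.card_le_card this).trans (Finset.card_union_le _ _)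
        have h2 : (insert v (nb H v)).card ≤ d + 1 :=
          (Finset.card_insert_le _ _).trans (Nat.succ_le_succ (hW v hv))
        nlinarith

/-- the number of vertices of degree exactly `d` -/
theorem degree_class_bound (H : SimpleGraph V) (q : ℝ) (hq : 0 ≤ q)
    (hyp : ∀ F : SimpleGraph V, F ≤ H → 1 ≤ EN q F) (d : ℕ) (hd : 1 ≤ d) :
    (((Finset.univ : Finset V).filter (fun v => (nb H v).card = d)).card : ℝ)
      ≤ (d + 1) * (3 * ((Fintype.card V * (Fintype.card V - 1).choose d : ℕ) * q ^ d)) := by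
  classical
  set W := (Finset.univ : Finset V).filter (fun v => (nb H v).card = d) with hWdef
  obtain ⟨I, hIW, hind, hcard⟩ := exists_indep H d W (fun v hv => (Finset.mem_filter.mp hv).2.le)
  have hdeg : ∀ v ∈ I, (nb H v).card = d := fun v hv => (Finset.mem_filter.mp (hIW hv)).2
  set P := I.image (fun v => star v (nb H v)) with hP
  have hinj : Set.InjOn (fun v => star v (nb H v)) (I : Set V) := by
    intro v hv w hw hvw
    by_contra hne
    have h1 := star_disjoint hne (hind v hv w hw)
    simp only at hvw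
    rw [← hvw, disjoint_self] at h1
    have h2 := ec_star (self_notMem_nb H v)
    rw [h1, hdeg v hv] at h2
    simp [ec] at h2
    omega
  have hPcard : P.card = I.card := Finset.card_image_of_injOn hinj
  have h := packing_class H q hq hyp (starClass V d) (starClass_closed d) d P
    (by
      intro G hG
      obtain ⟨v, hv, rfl⟩ := Finset.mem_image.mp hG
      exact mem_starClass.mpr ⟨v, nb H v, self_notMem_nb H v, hdeg v hv, rfl⟩)
    (by
      intro G hG
      obtain ⟨v, hv, rfl⟩ := Finset.mem_image.mp hG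
      exact star_le (Finset.Subset.refl _))
    (by
      intro G hG
      obtain ⟨v, hv, rfl⟩ := Finset.mem_image.mp hG
      rw [ec_star (self_notMem_nb H v), hdeg v hv])
    (by
      intro G hG G' hG' hne
      obtain ⟨v, hv, rfl⟩ := Finset.mem_image.mp hG
      obtain ⟨w, hw, rfl⟩ := Finset.mem_image.mp hG'
      apply star_disjoint _ (hind v hv w hw)
      rintro rfl
      exact hne rfl)
  rw [hPcard] at h
  have h3 : ((starClass V d).card : ℝ) ≤ ((Fintype.card V * (Fintype.card V - 1).choose d : ℕ) : ℝ) := by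
    exact_mod_cast card_starClass_le d
  have h4 : (I.card : ℝ) ≤ 3 * (((Fintype.card V * (Fintype.card V - 1).choose d : ℕ) : ℝ) * q ^ d) := by
    refine h.trans ?_
    apply mul_le_mul_of_nonneg_left _ (by norm_num)
    exact mul_le_mul_of_nonneg_right h3 (by positivity)
  calc (W.card : ℝ) ≤ ((d + 1) * I.card : ℕ) := by exact_mod_cast hcard
    _ = (d + 1) * (I.card : ℝ) := by push_cast; ring
    _ ≤ _ := by
      apply mul_le_mul_of_nonneg_left h4 (by positivity)

end Vale.Agent.Lib.P064
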