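import Mathlib

/-!
# P064: the summation over degree classes (pure inequalities)
-/

namespace Vale.Agent.Lib.P064

open Finset

theorem descFactorial_mul_pow_le (d M : ℕ) (h : d ≤ M) (t : ℕ) :
    d.descFactorial t * M ^ t ≤ M.descFactorial t * d ^ t := by
  induction t with
  | zero => simp
  | succ k ih =>
    rw [Nat.descFactorial_succ, Nat.descFactorial_succ, pow_succ, pow_succ]
    have h1 : (d - k) * M ≤ (M - k) * d := by
      rcases Nat.lt_or_ge d k with hk | hk
      · rw [Nat.sub_eq_zero_of_le hk.le]; simp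
      · obtain ⟨a, rfl⟩ := Nat.exists_eq_add_of_le hk
        obtain ⟨b, rfl⟩ := Nat.exists_eq_add_of_le h
        have e1 : k + a - k = a := by omega
        have e2 : k + a + b - k = a + b := by omega
        rw [e1, e2]
        nlinarith
    calc (d - k) * d.descFactorial k * (M ^ k * M)
        = ((d - k) * M) * (d.descFactorial k * M ^ k) := by ring
      _ ≤ ((M - k) * d) * (M.descFactorial k * d ^ k) := Nat.mul_le_mul h1 ih
      _ = (M - k) * M.descFactorial k * (d ^ k * d) := by ring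

theorem choose_mul_pow_le (d M : ℕ) (h : d ≤ M) (t : ℕ) :
    d.choose t * M ^ t ≤ M.choose t * d ^ t := by
  have h1 := descFactorial_mul_pow_le d M h t
  rw [Nat.descFactorial_eq_factorial_mul_choose, Nat.descFactorial_eq_factorial_mul_choose,
    mul_assoc, mul_assoc] at h1
  exact Nat.le_of_mul_le_mul_left h1 (Nat.factorial_pos t)

theorem low_bound (d M t : ℕ) (h : d ≤ M) (ht : 1 ≤ t) (q : ℝ) (hq : 0 ≤ q)
    (hlow : (d : ℝ) ≤ 6 * (M * q)) :
    (d.choose t : ℝ) ≤ (M.choose t : ℝ) * (6 * q) ^ t := by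
  rcases Nat.eq_zero_or_pos M with rfl | hM
  · have : d = 0 := by omega
    subst this
    rw [Nat.choose_eq_zero_of_lt (by omega), Nat.cast_zero]
    positivity
  · have hM' : (0 : ℝ) < (M : ℝ) ^ t := by positivity
    have h1 : (d.choose t : ℝ) * (M : ℝ) ^ t ≤ (M.choose t : ℝ) * (d : ℝ) ^ t := by
      exact_mod_cast choose_mul_pow_le d M h t
    have h2 : (d : ℝ) ^ t ≤ (6 * (M * q)) ^ t := pow_le_pow_left₀ (by positivity) hlow t
    have h3 : (d.choose t : ℝ) * (M : ℝ) ^ t ≤ ((M.choose t : ℝ) * (6 * q) ^ t) * (M : ℝ) ^ t := by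
      calc (d.choose t : ℝ) * (M : ℝ) ^ t ≤ (M.choose t : ℝ) * (d : ℝ) ^ t := h1
        _ ≤ (M.choose t : ℝ) * (6 * (M * q)) ^ t := by
          apply mul_le_mul_of_nonneg_left h2 (by positivity)
        _ = ((M.choose t : ℝ) * (6 * q) ^ t) * (M : ℝ) ^ t := by
          rw [mul_pow, mul_pow, mul_pow]; ring
    exact le_of_mul_le_mul_right h3 hM'

theorem exp_nat_le (d : ℕ) : Real.exp (d : ℝ) ≤ 3 ^ d := by
  have : Real.exp (d : ℝ) = Real.exp 1 ^ d := by
    rw [← Real.exp_nat_mul]; simp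
  rw [this]
  apply pow_le_pow_left₀ (Real.exp_pos 1).le
  have := Real.exp_one_lt_d9
  linarith

theorem high_factor (M t m : ℕ) (q : ℝ) (hq : 0 ≤ q)
    (hhigh : 6 * (M * q) < ((t + m : ℕ) : ℝ)) :
    ((M - t).choose m : ℝ) * q ^ m ≤ 3 ^ t / 2 ^ m := by
  set d := t + m with hd
  have hf : (0 : ℝ) < (m.factorial : ℝ) := by exact_mod_cast Nat.factorial_pos m
  have h1 : ((M - t).choose m : ℝ) ≤ ((M - t : ℕ) : ℝ) ^ m / (m.factorial : ℝ) :=
    Nat.choose_le_pow_div m (M - t)
  have h2 : ((M - t : ℕ) : ℝ) ^ m ≤ (M : ℝ) ^ m := by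
    apply pow_le_pow_left₀ (by positivity)
    exact_mod_cast Nat.sub_le M t
  have h3 : ((M : ℝ) * q) ^ m ≤ ((d : ℝ) / 6) ^ m := by
    apply pow_le_pow_left₀ (by positivity)
    linarith
  have h4 : (d : ℝ) ^ m / (m.factorial : ℝ) ≤ 3 ^ d :=
    (Real.pow_div_factorial_le_exp (d : ℝ) (by positivity) m).trans (exp_nat_le d)
  calc ((M - t).choose m : ℝ) * q ^ m
      ≤ ((M : ℝ) ^ m / (m.factorial : ℝ)) * q ^ m := by
        apply mul_le_mul_of_nonneg_right _ (by positivity)
        exact h1.trans (div_le_div_of_nonneg_right h2 hf.le)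
    _ = ((M : ℝ) * q) ^ m / (m.factorial : ℝ) := by rw [mul_pow]; ring
    _ ≤ ((d : ℝ) / 6) ^ m / (m.factorial : ℝ) := div_le_div_of_nonneg_right h3 hf.le
    _ = ((d : ℝ) ^ m / (m.factorial : ℝ)) / 6 ^ m := by rw [div_pow]; ring
    _ ≤ 3 ^ d / 6 ^ m := div_le_div_of_nonneg_right h4 (by positivity)
    _ = 3 ^ t / 2 ^ m := by
      rw [hd, pow_add]
      have : (6 : ℝ) ^ m = 3 ^ m * 2 ^ m := by rw [← mul_pow]; norm_num
      rw [this]
      field_simp

theorem geom_sum (t : ℕ) (K : ℕ) :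
    ∑ m ∈ Finset.range K, ((t + m + 1 : ℕ) : ℝ) / 2 ^ m
      = 2 * t + 4 - (2 * t + 2 * K + 4) / 2 ^ K := by
  induction K with
  | zero => simp
  | succ K ih =>
    rw [Finset.sum_range_succ, ih, pow_succ]
    push_cast
    field_simp
    ring

theorem geom_sum_le (t : ℕ) (K : ℕ) :
    ∑ m ∈ Finset.range K, ((t + m + 1 : ℕ) : ℝ) / 2 ^ m ≤ 2 * t + 4 := by
  rw [geom_sum]
  have : (0 : ℝ) ≤ (2 * t + 2 * K + 4) / 2 ^ K := by positivity
  linarith

theorem numeric (t : ℕ) (ht : 1 ≤ t) : (6 : ℝ) ^ t + 3 ^ (t + 1) * (2 * t + 4) ≤ 60 ^ t := by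
  have h1 : ∀ s : ℕ, (2 * ((s + 1 : ℕ) : ℝ) + 4) ≤ 3 * 2 ^ (s + 1) := by
    intro s
    induction s with
    | zero => norm_num
    | succ s ih =>
      have : (1 : ℝ) ≤ 2 ^ (s + 1) := one_le_pow₀ (by norm_num)
      rw [pow_succ]
      push_cast at ih ⊢
      linarith
  obtain ⟨s, rfl⟩ : ∃ s, t = s + 1 := ⟨t - 1, by omega⟩
  have h2 := h1 s
  have h3 : (3 : ℝ) ^ (s + 1 + 1) * (2 * ((s + 1 : ℕ) : ℝ) + 4) ≤ 9 * 6 ^ (s + 1) := by
    calc (3 : ℝ) ^ (s + 1 + 1) * (2 * ((s + 1 : ℕ) : ℝ) + 4)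
        ≤ 3 ^ (s + 1 + 1) * (3 * 2 ^ (s + 1)) := by
          apply mul_le_mul_of_nonneg_left h2 (by positivity)
      _ = 9 * (3 ^ (s + 1) * 2 ^ (s + 1)) := by ring
      _ = 9 * 6 ^ (s + 1) := by rw [← mul_pow]; norm_num
  have h4 : (60 : ℝ) ^ (s + 1) = 10 ^ (s + 1) * 6 ^ (s + 1) := by rw [← mul_pow]; norm_num
  have h5 : (10 : ℝ) ≤ 10 ^ (s + 1) := by
    calc (10 : ℝ) = 10 ^ 1 := by norm_num
      _ ≤ 10 ^ (s + 1) := pow_le_pow_right₀ (by norm_num) (by omega)
  have h6 : (0 : ℝ) < 6 ^ (s + 1) := by positivity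
  rw [h4]
  nlinarith

theorem sum_bound {V : Type*} [Fintype V] (deg : V → ℕ) (q : ℝ) (hq : 0 ≤ q) (n : ℕ)
    (hn : Fintype.card V = n) (hdeg : ∀ v, deg v ≤ n - 1)
    (hcl : ∀ d, 1 ≤ d → (((Finset.univ : Finset V).filter (fun v => deg v = d)).card : ℝ)
      ≤ (d + 1) * (3 * ((n * (n - 1).choose d : ℕ) * q ^ d)))
    (t : ℕ) (ht : 1 ≤ t) :
    ∑ v, ((deg v).choose t : ℝ) ≤ n * ((n - 1).choose t : ℝ) * (60 * q) ^ t := by
  classical
  set M := n - 1 with hM
  set X : ℝ := n * (M.choose t : ℝ) * q ^ t with hX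
  have hX0 : 0 ≤ X := by positivity
  -- the high part as a function of the degree
  let g : ℕ → ℝ := fun d => if 6 * ((M : ℝ) * q) < (d : ℝ) then (d.choose t : ℝ) else 0
  have hpt : ∀ v, ((deg v).choose t : ℝ) ≤ (M.choose t : ℝ) * (6 * q) ^ t + g (deg v) := by
    intro v
    by_cases h : 6 * ((M : ℝ) * q) < (deg v : ℝ)
    · simp only [g, if_pos h]
      have : 0 ≤ (M.choose t : ℝ) * (6 * q) ^ t := by positivity
      linarith
    · simp only [g, if_neg h, add_zero]
      exact low_bound _ _ _ (hdeg v) ht q hq (not_lt.mp h)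
  have hsum1 : ∑ v, ((deg v).choose t : ℝ) ≤ X * 6 ^ t + ∑ v, g (deg v) := by
    calc ∑ v, ((deg v).choose t : ℝ) ≤ ∑ v : V, ((M.choose t : ℝ) * (6 * q) ^ t + g (deg v)) :=
          Finset.sum_le_sum (fun v _ => hpt v)
      _ = X * 6 ^ t + ∑ v, g (deg v) := by
          rw [Finset.sum_add_distrib, Finset.sum_const, Finset.card_univ, hn, nsmul_eq_mul, hX,
            mul_pow]
          ring
  have hfib : ∑ v, g (deg v)
      = ∑ d ∈ Finset.range n, (((Finset.univ : Finset V).filter (fun v => deg v = d)).card : ℝ) * g d := by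
    rcases Nat.eq_zero_or_pos n with h0 | hpos
    · subst h0
      have : IsEmpty V := Fintype.card_eq_zero_iff.mp hn
      simp
    rw [← Finset.sum_fiberwise_of_maps_to (s := (Finset.univ : Finset V)) (t := Finset.range n)
      (g := deg) (fun v _ => Finset.mem_range.mpr (by have := hdeg v; omega))]
    apply Finset.sum_congr rfl
    intro d _
    rw [Finset.sum_congr rfl (fun v hv => by rw [(Finset.mem_filter.mp hv).2] :
      ∀ v ∈ (Finset.univ : Finset V).filter (fun v => deg v = d), g (deg v) = g d)]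
    rw [Finset.sum_const, nsmul_eq_mul]
  have hterm : ∀ d ∈ Finset.range n,
      (((Finset.univ : Finset V).filter (fun v => deg v = d)).card : ℝ) * g d
        ≤ if t ≤ d then X * 3 ^ (t + 1) * (((d + 1 : ℕ) : ℝ) / 2 ^ (d - t)) else 0 := by
    intro d hd
    have hdM : d ≤ M := by have := Finset.mem_range.mp hd; omega
    by_cases htd : t ≤ d
    · rw [if_pos htd]
      by_cases h : 6 * ((M : ℝ) * q) < (d : ℝ)
      · simp only [g, if_pos h]
        obtain ⟨m, rfl⟩ := Nat.exists_eq_add_of_le htd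
        have e1 : t + m - t = m := by omega
        rw [e1]
        have hA := hcl (t + m) (by omega)
        have hch : (M.choose (t + m) : ℝ) * ((t + m).choose t : ℝ)
            = (M.choose t : ℝ) * ((M - t).choose m : ℝ) := by
          have := Nat.choose_mul (n := M) (k := t + m) (s := t) (by omega)
          rw [e1] at this
          exact_mod_cast this
        have hF := high_factor M t m q hq h
        calc (((Finset.univ : Finset V).filter (fun v => deg v = t + m)).card : ℝ)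
              * ((t + m).choose t : ℝ)
            ≤ (((t + m : ℕ) : ℝ) + 1) * (3 * ((n * M.choose (t + m) : ℕ) * q ^ (t + m)))
              * ((t + m).choose t : ℝ) := by
              apply mul_le_mul_of_nonneg_right hA (by positivity)
          _ = (((t + m : ℕ) : ℝ) + 1) * 3 * n * q ^ t
              * ((M.choose (t + m) : ℝ) * ((t + m).choose t : ℝ)) * q ^ m := by
              push_cast
              ring
          _ = (((t + m : ℕ) : ℝ) + 1) * 3 * X * (((M - t).choose m : ℝ) * q ^ m) := by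
              rw [hch, hX]; ring
          _ ≤ (((t + m : ℕ) : ℝ) + 1) * 3 * X * (3 ^ t / 2 ^ m) := by
              apply mul_le_mul_of_nonneg_left hF (by positivity)
          _ = X * 3 ^ (t + 1) * (((t + m + 1 : ℕ) : ℝ) / 2 ^ m) := by
              push_cast
              ring
      · simp only [g, if_neg h, mul_zero]
        positivity
    · rw [if_neg htd]
      have : d.choose t = 0 := Nat.choose_eq_zero_of_lt (by omega)
      simp only [g, this]
      simp
  have hsum2 : ∑ v, g (deg v) ≤ X * 3 ^ (t + 1) * (2 * t + 4) := by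
    rw [hfib]
    refine (Finset.sum_le_sum hterm).trans ?_
    rw [← Finset.sum_filter]
    have hfil : (Finset.range n).filter (fun d => t ≤ d) = Finset.Ico t n := by
      ext d
      simp only [Finset.mem_filter, Finset.mem_range, Finset.mem_Ico]
      tauto
    rw [hfil, Finset.sum_Ico_eq_sum_range, ← Finset.mul_sum]
    apply mul_le_mul_of_nonneg_left _ (by positivity)
    refine le_trans (le_of_eq ?_) (geom_sum_le t (n - t))
    apply Finset.sum_congr rfl
    intro m _
    have e1 : t + m - t = m := by omega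
    rw [e1]
  have hnum := numeric t ht
  calc ∑ v, ((deg v).choose t : ℝ) ≤ X * 6 ^ t + X * 3 ^ (t + 1) * (2 * t + 4) := by linarith
    _ = X * (6 ^ t + 3 ^ (t + 1) * (2 * t + 4)) := by ring
    _ ≤ X * 60 ^ t := mul_le_mul_of_nonneg_left hnum hX0
    _ = n * (M.choose t : ℝ) * (60 * q) ^ t := by rw [hX, mul_pow]; ring

end Vale.Agent.Lib.P064
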