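import Mathlib
import Vale.Agent.Lib.P064.Pack
import Vale.Agent.Lib.P064.Star
import Vale.Agent.Lib.P064.Sum

/-!
# P064: counting copies of stars, and the final inequality
-/

namespace Vale.Agent.Lib.P064

open Finset

set_option linter.unusedSectionVars false

variable {V : Type*} [Fintype V] [DecidableEq V]

theorem exists_perm_of_fiber {α β : Type*} [Fintype α] [DecidableEq β] (f g : α → β)
    (h : ∀ y, Fintype.card {x // f x = y} = Fintype.card {x // g x = y}) :
    ∃ σ : α ≃ α, ∀ x, g (σ x) = f x := by
  refine ⟨(Equiv.sigmaFiberEquiv f).symm.trans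
    ((Equiv.sigmaCongrRight fun y => Fintype.equivOfCardEq (h y)).trans
      (Equiv.sigmaFiberEquiv g)), ?_⟩
  intro x
  exact ((Fintype.equivOfCardEq (h (f x))) ⟨x, rfl⟩).2

/-- colour: centre 0, leaves 1, the rest 2 -/
def col (c : V) (S : Finset V) (x : V) : ℕ := if x = c then 0 else if x ∈ S then 1 else 2

theorem card_col (c : V) (S : Finset V) (hc : c ∉ S) (y : ℕ) :
    Fintype.card {x // col c S x = y}
      = if y = 0 then 1 else if y = 1 then S.card else if y = 2 then Fintype.card V - (S.card + 1)
        else 0 := by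
  rw [Fintype.card_subtype]
  by_cases h0 : y = 0
  · subst h0
    rw [if_pos rfl]
    have : (Finset.univ.filter (fun x => col c S x = 0)) = {c} := by
      ext x
      simp only [Finset.mem_filter, Finset.mem_univ, true_and, Finset.mem_singleton]
      unfold col
      split_ifs <;> simp_all
    rw [this, Finset.card_singleton]
  rw [if_neg h0]
  by_cases h1 : y = 1
  · subst h1
    rw [if_pos rfl]
    have : (Finset.univ.filter (fun x => col c S x = 1)) = S := by
      ext x
      simp only [Finset.mem_filter, Finset.mem_univ, true_and]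
      unfold col
      split_ifs with hx hx'
      · subst hx; simp [hc]
      · simp [hx']
      · simp [hx']
    rw [this]
  rw [if_neg h1]
  by_cases h2 : y = 2
  · subst h2
    rw [if_pos rfl]
    have : (Finset.univ.filter (fun x => col c S x = 2)) = Finset.univ \ insert c S := by
      ext x
      simp only [Finset.mem_filter, Finset.mem_univ, true_and, Finset.mem_sdiff,
        Finset.mem_insert, not_or]
      unfold col
      split_ifs with hx hx'
      · simp [hx]
      · simp [hx']
      · simp [hx, hx']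
    rw [this, Finset.card_sdiff_of_subset (Finset.subset_univ _), Finset.card_insert_of_notMem hc,
      Finset.card_univ]
  rw [if_neg h2]
  rw [Finset.card_eq_zero, Finset.filter_eq_empty_iff]
  intro x _
  simp only [col]
  split_ifs <;> omega

theorem star_iso (c v : V) (S T : Finset V) (hc : c ∉ S) (hv : v ∉ T) (hcard : T.card = S.card) :
    Nonempty (star v T ≃g star c S) := by
  obtain ⟨σ, hσ⟩ := exists_perm_of_fiber (col v T) (col c S) (by
    intro y
    rw [card_col v T hv, card_col c S hc, hcard])
  have h1 : σ v = c := by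
    have := hσ v
    simp only [col, if_true] at this
    by_contra hne
    rw [if_neg hne] at this
    split_ifs at this
  have h2 : ∀ x, x ∈ T ↔ σ x ∈ S := by
    intro x
    have := hσ x
    by_cases hx : x = v
    · subst hx
      rw [h1]
      exact ⟨fun h => absurd h hv, fun h => absurd h hc⟩
    · have hx' : σ x ≠ c := fun h => hx (σ.injective (h.trans h1.symm))
      simp only [col, if_neg hx, if_neg hx'] at this
      by_cases a : x ∈ T <;> by_cases b : σ x ∈ S <;> simp_all
  have h3 : star v T = (star c S).comap σ := by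
    rw [comap_star]
    congr 1
    · rw [← h1]; simp
    · ext x
      rw [Finset.mem_map_equiv, Equiv.symm_symm]
      exact h2 x
  rw [h3]
  exact ⟨SimpleGraph.Iso.comap σ (star c S)⟩

theorem star_inj {v w : V} {S T : Finset V} (hv : v ∉ S) (hw : w ∉ T) (hS : 2 ≤ S.card)
    (h : star v S = star w T) : v = w ∧ S = T := by
  have hvw : v = w := by
    obtain ⟨a, ha, b, hb, hab⟩ := Finset.one_lt_card.mp hS
    have h1 : (star w T).Adj v a := h ▸ (star_adj_centre hv a).mpr ha
    have h2 : (star w T).Adj v b := h ▸ (star_adj_centre hv b).mpr hb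
    rw [star_adj] at h1 h2
    rcases h1.2 with ⟨h1, -⟩ | ⟨h1, -⟩
    · exact h1
    · rcases h2.2 with ⟨h2, -⟩ | ⟨h2, -⟩
      · exact h2
      · exact absurd (h1.trans h2.symm) hab
  subst hvw
  refine ⟨rfl, ?_⟩
  ext x
  rw [← star_adj_centre hv x, ← star_adj_centre hw x, h]

/-- copies of a star in `H`: at most the number of pairs (vertex, set of neighbours) -/
theorem N_star_le (H : SimpleGraph V) (c : V) (S : Finset V) (hc : c ∉ S) :
    N H (star c S) ≤ ∑ v, ((nb H v).card).choose S.card := by
  classical
  have hcard : ((Finset.univ : Finset V).sigma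
      (fun v => Finset.powersetCard S.card (nb H v))).card = ∑ v, ((nb H v).card).choose S.card := by
    rw [Finset.card_sigma]
    simp
  rw [← hcard]
  unfold N
  refine le_trans ?_ (Finset.card_image_le (f := fun p : (Σ _ : V, Finset V) => star p.1 p.2))
  rw [← Set.ncard_coe_finset]
  apply Set.ncard_le_ncard _ (Set.toFinite _)
  rintro G ⟨hGH, ⟨φ⟩⟩
  obtain ⟨v', S', hc', hcard', hG⟩ : ∃ v' S', v' ∉ S' ∧ S'.card = S.card ∧ G = star v' S' := by
    refine ⟨φ.toEquiv.symm c, S.map φ.toEquiv.symm.toEmbedding, by simpa using hc, by simp, ?_⟩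
    rw [← comap_star]; exact eq_comap_of_iso φ
  clear φ
  subst hG
  rw [Finset.mem_coe, Finset.mem_image]
  refine ⟨⟨v', S'⟩, ?_, rfl⟩
  rw [Finset.mem_sigma, Finset.mem_powersetCard]
  refine ⟨Finset.mem_univ _, ?_, hcard'⟩
  intro x hx
  rw [mem_nb]
  apply hGH
  exact (star_adj_centre hc' x).mpr hx

/-- copies of a star with at least two leaves in the complete graph -/
theorem le_N_top_star (c : V) (S : Finset V) (hc : c ∉ S) (hS : 2 ≤ S.card) :
    Fintype.card V * (Fintype.card V - 1).choose S.card ≤ N ⊤ (star c S) := by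
  classical
  rw [← card_starPairs, ← Set.ncard_coe_finset]
  unfold N
  have hmem : ∀ p ∈ starPairs V S.card, p.1 ∉ p.2 ∧ p.2.card = S.card := by
    intro p hp
    unfold starPairs at hp
    rw [Finset.mem_sigma, Finset.mem_powersetCard] at hp
    exact ⟨fun h => by simpa using hp.2.1 h, hp.2.2⟩
  apply Set.ncard_le_ncard_of_injOn (fun p : (Σ _ : V, Finset V) => star p.1 p.2) _ _
    (Set.toFinite _)
  · intro p hp
    obtain ⟨h1, h2⟩ := hmem p hp
    exact ⟨le_top, star_iso c p.1 S p.2 hc h1 h2⟩
  · intro p hp p' hp' hpp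
    obtain ⟨h1, h2⟩ := hmem p hp
    obtain ⟨h1', h2'⟩ := hmem p' hp'
    obtain ⟨e1, e2⟩ := star_inj h1 h1' (by omega) hpp
    cases p; cases p'
    simp only at e1 e2
    subst e1 e2
    rfl

theorem card_nb_le (H : SimpleGraph V) (v : V) : (nb H v).card ≤ Fintype.card V - 1 := by
  have : nb H v ⊆ Finset.univ.erase v := by
    intro x hx
    simp only [Finset.mem_erase, Finset.mem_univ, and_true]
    rintro rfl
    exact self_notMem_nb H _ hx
  calc (nb H v).card ≤ (Finset.univ.erase v).card := Finset.card_le_card this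
    _ = Fintype.card V - 1 := by simp [Finset.card_univ]

/-- pairs (vertex, `t` neighbours) -/
theorem star_sum_bound (H : SimpleGraph V) (q : ℝ) (hq : 0 ≤ q)
    (hyp : ∀ F : SimpleGraph V, F ≤ H → 1 ≤ EN q F) (t : ℕ) (ht : 1 ≤ t) :
    ∑ v, (((nb H v).card).choose t : ℝ)
      ≤ Fintype.card V * ((Fintype.card V - 1).choose t : ℝ) * (min 1 (60 * q)) ^ t := by
  rcases le_total (60 * q) 1 with h | h
  · rw [min_eq_right h]
    exact sum_bound (fun v => (nb H v).card) q hq (Fintype.card V) rfl (card_nb_le H)
      (fun d hd => degree_class_bound H q hq hyp d hd) t ht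
  · rw [min_eq_left h, one_pow, mul_one]
    calc ∑ v, (((nb H v).card).choose t : ℝ) ≤ ∑ _v : V, ((Fintype.card V - 1).choose t : ℝ) := by
          apply Finset.sum_le_sum
          intro v _
          exact_mod_cast Nat.choose_le_choose t (card_nb_le H v)
      _ = _ := by rw [Finset.sum_const, Finset.card_univ, nsmul_eq_mul]

/-- **Stars**: `N(H, K_{1,t}) ≤ E N(G(n, min(1, 60 q)), K_{1,t})`. -/
theorem star_bound (H : SimpleGraph V) (q : ℝ) (hq : 0 ≤ q)
    (hyp : ∀ F : SimpleGraph V, F ≤ H → 1 ≤ EN q F) (c : V) (S : Finset V) (hc : c ∉ S)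
    (hS : 2 ≤ S.card) :
    (N H (star c S) : ℝ) ≤ EN (min 1 (60 * q)) (star c S) := by
  unfold EN
  rw [ec_star hc]
  have h1 : (N H (star c S) : ℝ) ≤ ∑ v, (((nb H v).card).choose S.card : ℝ) := by
    exact_mod_cast N_star_le H c S hc
  have h2 := star_sum_bound H q hq hyp S.card (by omega)
  have h3 : (Fintype.card V : ℝ) * ((Fintype.card V - 1).choose S.card : ℝ)
      ≤ (N ⊤ (star c S) : ℝ) := by
    exact_mod_cast le_N_top_star c S hc hS
  have h4 : (0 : ℝ) ≤ (min 1 (60 * q)) ^ S.card := by
    apply pow_nonneg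
    exact le_min (by norm_num) (by positivity)
  calc (N H (star c S) : ℝ) ≤ _ := h1
    _ ≤ _ := h2
    _ ≤ _ := mul_le_mul_of_nonneg_right h3 h4

end Vale.Agent.Lib.P064
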